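import Mathlib
import Vale.Agent.P069.Main

open Vale.Agent.P069

theorem Vale.Agent.Results.P069.Counter.result :
    ∃ (X : Type) (_ : NormedAddCommGroup X) (_ : NormedSpace ℝ X),
      CompleteSpace X ∧ ¬ FiniteDimensional ℝ X ∧
      Function.Surjective (NormedSpace.inclusionInDoubleDual ℝ X) ∧
      (∃ N : Seminorm ℝ X, IsEquivNorm N ∧ IsAMUC N) ∧
      ¬ ∃ N : Seminorm ℝ X, IsEquivNorm N ∧ IsAUC N :=
  ⟨StrongDual ℝ JE, inferInstance, inferInstance, inferInstance, not_findim, reflexive_dual,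
    ⟨normSeminorm ℝ _, ⟨1, 1, one_pos, fun x => by simp⟩, amuc⟩,
    fun ⟨N, h1, h2⟩ => not_auc N h1 h2⟩
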